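import Vale.Agent.P235.Final

namespace Vale.Agent.Results.P235.TreewidthLB

open Vale.Agent.P235 MeasureTheory

/-- Linear lower bound for the `L₁` distortion of bounded-treewidth graphs: for every `k` and
every `C < k + 1` there is a finite connected graph of treewidth at most `2k + 1` with positive
edge lengths whose shortest-path metric has no embedding into any `L₁(μ)` of distortion at
most `C`. -/
theorem result (k : ℕ) (C : ℝ) (hC : C < k + 1) :
    ∃ (n : ℕ) (G : SimpleGraph (Fin n)) (l : Fin n → Fin n → ℝ), G.Connected ∧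
      (∀ u v, G.Adj u v → 0 < l u v ∧ l u v = l v u) ∧ TreewidthLE G (2 * k + 1) ∧
      ∀ (Ω : Type) [MeasurableSpace Ω] (μ : Measure Ω) (f : Fin n → Lp ℝ 1 μ),
        ¬ ∀ x y, spDist G l x y ≤ ‖f x - f y‖ ∧ ‖f x - f y‖ ≤ C * spDist G l x y :=
  final k C hC

end Vale.Agent.Results.P235.TreewidthLB
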